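import Mathlib

/-!
# P205: the model map with two rotating planes, and the algebra of its induced metric
-/

open scoped ContDiff RealInnerProductSpace
open MeasureTheory

namespace Vale.Agent.Lib.P205

noncomputable section


/-- two rotating planes -/
def model2 (ρ1 ρ2 α1 α2 : ℝ → ℝ) (a : ℝ) (p : ℝ × ℝ) : EuclideanSpace ℝ (Fin 4) :=
  !₂[ρ1 p.1 * Real.cos (a * p.2 + α1 p.1), ρ1 p.1 * Real.sin (a * p.2 + α1 p.1),
     ρ2 p.1 * Real.cos (a * p.2 + α2 p.1), ρ2 p.1 * Real.sin (a * p.2 + α2 p.1)]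

lemma model2_contDiff {ρ1 ρ2 α1 α2 : ℝ → ℝ} {a : ℝ} (h1 : ContDiff ℝ ∞ ρ1) (h2 : ContDiff ℝ ∞ ρ2)
    (h3 : ContDiff ℝ ∞ α1) (h4 : ContDiff ℝ ∞ α2) : ContDiff ℝ ∞ (model2 ρ1 ρ2 α1 α2 a) := by
  rw [contDiff_euclidean]
  intro i
  have e1 : ContDiff ℝ ∞ (fun p : ℝ × ℝ => ρ1 p.1) := h1.comp contDiff_fst
  have e2 : ContDiff ℝ ∞ (fun p : ℝ × ℝ => ρ2 p.1) := h2.comp contDiff_fst
  have e3 : ContDiff ℝ ∞ (fun p : ℝ × ℝ => α1 p.1) := h3.comp contDiff_fst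
  have e4 : ContDiff ℝ ∞ (fun p : ℝ × ℝ => α2 p.1) := h4.comp contDiff_fst
  have e5 : ContDiff ℝ ∞ (fun p : ℝ × ℝ => a * p.2) := contDiff_const.mul contDiff_snd
  fin_cases i
  · simp only [model2]
    exact e1.mul (Real.contDiff_cos.comp (e5.add e3))
  · simp only [model2]
    exact e1.mul (Real.contDiff_sin.comp (e5.add e3))
  · simp only [model2]
    exact e2.mul (Real.contDiff_cos.comp (e5.add e4))
  · simp only [model2]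
    exact e2.mul (Real.contDiff_sin.comp (e5.add e4))

lemma model2_inner {ρ1 ρ2 α1 α2 : ℝ → ℝ} {a : ℝ} (h1 : ContDiff ℝ ∞ ρ1) (h2 : ContDiff ℝ ∞ ρ2)
    (h3 : ContDiff ℝ ∞ α1) (h4 : ContDiff ℝ ∞ α2) (p v w : ℝ × ℝ) :
    ⟪fderiv ℝ (model2 ρ1 ρ2 α1 α2 a) p v, fderiv ℝ (model2 ρ1 ρ2 α1 α2 a) p w⟫ =
      ((deriv ρ1 p.1) ^ 2 + (ρ1 p.1) ^ 2 * (deriv α1 p.1) ^ 2
        + (deriv ρ2 p.1) ^ 2 + (ρ2 p.1) ^ 2 * (deriv α2 p.1) ^ 2) * v.1 * w.1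
      + a * ((ρ1 p.1) ^ 2 * deriv α1 p.1 + (ρ2 p.1) ^ 2 * deriv α2 p.1) * (v.1 * w.2 + v.2 * w.1)
      + a ^ 2 * ((ρ1 p.1) ^ 2 + (ρ2 p.1) ^ 2) * v.2 * w.2 := by
  set F := model2 ρ1 ρ2 α1 α2 a with hF
  have hdiff : DifferentiableAt ℝ F p :=
    ((model2_contDiff h1 h2 h3 h4).differentiable (by simp)).differentiableAt
  have hcomp : ∀ (i : Fin 4) (u : ℝ × ℝ), (fderiv ℝ F p u) i = fderiv ℝ (fun q => F q i) p u := by
    intro i u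
    have := ((EuclideanSpace.proj (𝕜 := ℝ) i).hasFDerivAt.comp p hdiff.hasFDerivAt).fderiv
    have h2 : (fun q => F q i) = (EuclideanSpace.proj (𝕜 := ℝ) i) ∘ F := by
      ext q; simp
    rw [h2, this]; simp
  have d1 : HasFDerivAt (fun q : ℝ × ℝ => ρ1 q.1) (deriv ρ1 p.1 • ContinuousLinearMap.fst ℝ ℝ ℝ) p :=
    ((h1.differentiable (by simp)).differentiableAt.hasDerivAt).comp_hasFDerivAt p hasFDerivAt_fst
  have d2 : HasFDerivAt (fun q : ℝ × ℝ => ρ2 q.1) (deriv ρ2 p.1 • ContinuousLinearMap.fst ℝ ℝ ℝ) p :=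
    ((h2.differentiable (by simp)).differentiableAt.hasDerivAt).comp_hasFDerivAt p hasFDerivAt_fst
  have d3 : HasFDerivAt (fun q : ℝ × ℝ => α1 q.1) (deriv α1 p.1 • ContinuousLinearMap.fst ℝ ℝ ℝ) p :=
    ((h3.differentiable (by simp)).differentiableAt.hasDerivAt).comp_hasFDerivAt p hasFDerivAt_fst
  have d4 : HasFDerivAt (fun q : ℝ × ℝ => α2 q.1) (deriv α2 p.1 • ContinuousLinearMap.fst ℝ ℝ ℝ) p :=
    ((h4.differentiable (by simp)).differentiableAt.hasDerivAt).comp_hasFDerivAt p hasFDerivAt_fst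
  have dy : HasFDerivAt (fun q : ℝ × ℝ => a * q.2) _ p :=
    (hasFDerivAt_snd (𝕜 := ℝ) (p := p) (E := ℝ) (F := ℝ)).const_mul a
  have dθ1 : HasFDerivAt (fun q : ℝ × ℝ => a * q.2 + α1 q.1) _ p := dy.add d3
  have dθ2 : HasFDerivAt (fun q : ℝ × ℝ => a * q.2 + α2 q.1) _ p := dy.add d4
  have f0 : fderiv ℝ (fun q => F q 0) p = _ := (d1.mul dθ1.cos).fderiv
  have f1 : fderiv ℝ (fun q => F q 1) p = _ := (d1.mul dθ1.sin).fderiv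
  have f2 : fderiv ℝ (fun q => F q 2) p = _ := (d2.mul dθ2.cos).fderiv
  have f3 : fderiv ℝ (fun q => F q 3) p = _ := (d2.mul dθ2.sin).fderiv
  rw [PiLp.inner_apply, Fin.sum_univ_four]
  simp only [hcomp, f0, f1, f2, f3]
  simp
  have hc1 := Real.sin_sq_add_cos_sq (a * p.2 + α1 p.1)
  have hc2 := Real.sin_sq_add_cos_sq (a * p.2 + α2 p.1)
  linear_combination ((ρ1 p.1 * (a * w.2 + deriv α1 p.1 * w.1)) * (ρ1 p.1 * (a * v.2 + deriv α1 p.1 * v.1))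
      + (deriv ρ1 p.1 * w.1) * (deriv ρ1 p.1 * v.1)) * hc1
    + ((ρ2 p.1 * (a * w.2 + deriv α2 p.1 * w.1)) * (ρ2 p.1 * (a * v.2 + deriv α2 p.1 * v.1))
      + (deriv ρ2 p.1 * w.1) * (deriv ρ2 p.1 * v.1)) * hc2


lemma metric_algebra (a g0v dv Gv Mv Ev φv Wv sn cs : ℝ) (ha : a ≠ 0) (hG : Gv = g0v ^ 2)
    (hg0 : g0v ≠ 0) (hsc : sn ^ 2 + cs ^ 2 = 1) (hs : sn ≠ 0) (hc : cs ≠ 0)
    (hW : Wv ^ 2 + φv ^ 2 = (a ^ 2 * (Ev - Mv ^ 2 / Gv) - dv ^ 2) / Gv) :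
    ((dv / a * cs - g0v / a * sn * φv) ^ 2 + (g0v / a * cs) ^ 2 * (a * (Mv / Gv) + Wv * (sn / cs)) ^ 2
      + (dv / a * sn + g0v / a * cs * φv) ^ 2
      + (g0v / a * sn) ^ 2 * (a * (Mv / Gv) - Wv * (cs / sn)) ^ 2 = Ev) ∧
    (a * ((g0v / a * cs) ^ 2 * (a * (Mv / Gv) + Wv * (sn / cs))
      + (g0v / a * sn) ^ 2 * (a * (Mv / Gv) - Wv * (cs / sn))) = Mv) ∧
    (a ^ 2 * ((g0v / a * cs) ^ 2 + (g0v / a * sn) ^ 2) = Gv) := by
  have hGne : Gv ≠ 0 := by rw [hG]; positivity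
  set κ := Mv / Gv with hκ
  set r := g0v / a with hr
  have hra : r * a = g0v := by rw [hr]; field_simp
  have hB1 : cs * (a * κ + Wv * (sn / cs)) = a * κ * cs + Wv * sn := by field_simp
  have hB2 : sn * (a * κ - Wv * (cs / sn)) = a * κ * sn - Wv * cs := by field_simp
  have hMκ : Mv = κ * Gv := by rw [hκ]; field_simp
  have hda : dv / a * a = dv := by field_simp
  have hW' : (Wv ^ 2 + φv ^ 2) * Gv = a ^ 2 * (Ev - κ ^ 2 * Gv) - dv ^ 2 := by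
    rw [hW, hκ]; field_simp
  have hGr : Gv = r ^ 2 * a ^ 2 := by rw [hG, ← hra]; ring
  refine ⟨?_, ?_, ?_⟩
  · have e1 : (r * cs) ^ 2 * (a * κ + Wv * (sn / cs)) ^ 2 = r ^ 2 * (a * κ * cs + Wv * sn) ^ 2 := by
      rw [← hB1]; ring
    have e2 : (r * sn) ^ 2 * (a * κ - Wv * (cs / sn)) ^ 2 = r ^ 2 * (a * κ * sn - Wv * cs) ^ 2 := by
      rw [← hB2]; ring
    rw [e1, e2]
    set δ := dv / a with hδ
    have hdv : dv = δ * a := hda.symm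
    rw [hdv, hGr] at hW'
    have ha2 : a ^ 2 ≠ 0 := pow_ne_zero 2 ha
    apply mul_left_cancel₀ ha2
    linear_combination (a ^ 2 * (δ ^ 2 + r ^ 2 * φv ^ 2 + r ^ 2 * a ^ 2 * κ ^ 2 + r ^ 2 * Wv ^ 2)) * hsc + hW'
  · have e1 : (r * cs) ^ 2 * (a * κ + Wv * (sn / cs)) = r ^ 2 * cs * (a * κ * cs + Wv * sn) := by
      rw [← hB1]; ring
    have e2 : (r * sn) ^ 2 * (a * κ - Wv * (cs / sn)) = r ^ 2 * sn * (a * κ * sn - Wv * cs) := by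
      rw [← hB2]; ring
    rw [e1, e2, hMκ, hGr]
    linear_combination (a ^ 2 * r ^ 2 * κ) * hsc
  · rw [hGr]
    linear_combination (a ^ 2 * r ^ 2) * hsc

end

end Vale.Agent.Lib.P205
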