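import Vale.Agent.Lib.P205.Closing
import Vale.Agent.Lib.P205.Model

/-!
# P205: every circle-invariant metric on the torus immerses isometrically in `ℝ⁴`
-/

open scoped ContDiff RealInnerProductSpace
open MeasureTheory Set

namespace Vale.Agent.Lib.P205

noncomputable section

lemma prim_hasDerivAt {h : ℝ → ℝ} (hc : Continuous h) (x : ℝ) :
    HasDerivAt (fun u => ∫ t in (0:ℝ)..u, h t) (h x) x :=
  intervalIntegral.integral_hasDerivAt_right (hc.intervalIntegrable _ _)
    (hc.stronglyMeasurableAtFilter _ _) hc.continuousAt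

lemma prim_deriv {h : ℝ → ℝ} (hc : Continuous h) :
    deriv (fun u => ∫ t in (0:ℝ)..u, h t) = h := by
  ext x; exact (prim_hasDerivAt hc x).deriv

lemma prim_contDiff {h : ℝ → ℝ} (hh : ContDiff ℝ ∞ h) :
    ContDiff ℝ ∞ (fun u => ∫ t in (0:ℝ)..u, h t) := by
  rw [contDiff_infty_iff_deriv]
  refine ⟨fun x => (prim_hasDerivAt hh.continuous x).differentiableAt, ?_⟩
  rw [prim_deriv hh.continuous]; exact hh

lemma prim_periodic {h : ℝ → ℝ} (hc : Continuous h) (hp : Function.Periodic h 1) (x : ℝ) :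
    ∫ t in (0:ℝ)..(x + 1), h t = (∫ t in (0:ℝ)..x, h t) + ∫ t in (0:ℝ)..1, h t := by
  rw [← intervalIntegral.integral_add_adjacent_intervals (hc.intervalIntegrable 0 x)
    (hc.intervalIntegrable x (x + 1)), hp.intervalIntegral_add_eq x 0, zero_add]

lemma periodic_lower {f : ℝ → ℝ} (hc : Continuous f) (hp : Function.Periodic f 1)
    (hpos : ∀ x, 0 < f x) : ∃ c, 0 < c ∧ ∀ x, c ≤ f x := by
  have hK : IsCompact (Set.range f) := hp.compact_of_continuous one_ne_zero hc
  obtain ⟨x0, hx0⟩ := hK.sInf_mem (Set.range_nonempty f)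
  refine ⟨f x0, hpos x0, fun x => ?_⟩
  rw [hx0]
  exact csInf_le hK.bddBelow (Set.mem_range_self x)

lemma periodic_upper {f : ℝ → ℝ} (hc : Continuous f) (hp : Function.Periodic f 1) :
    ∃ C, 0 < C ∧ ∀ x, |f x| ≤ C := by
  have hK := hp.isBounded_of_continuous one_ne_zero hc
  obtain ⟨C, hC⟩ := hK.exists_norm_le
  refine ⟨max C 1, by positivity, fun x => ?_⟩
  exact le_trans (hC _ (Set.mem_range_self x)) (le_max_left _ _)

lemma periodic_deriv {f : ℝ → ℝ} (hp : Function.Periodic f 1) :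
    Function.Periodic (deriv f) 1 := by
  intro x
  rw [← deriv_comp_add_const]
  congr 1
  ext y; exact hp y

/-- small angles keep `tan (π/4 + ·)` below `51/50` -/
lemma exists_small_angle : ∃ δ : ℝ, 0 < δ ∧ ∀ x, 0 ≤ x → x ≤ δ → Real.tan (Real.pi / 4 + x) ≤ 51 / 50 := by
  have hc : ContinuousAt Real.tan (Real.pi / 4) := by
    apply Real.continuousAt_tan.mpr
    rw [Real.cos_pi_div_four]; positivity
  have hev : ∀ᶠ y in nhds (Real.pi / 4), Real.tan y < 51 / 50 := by
    apply hc.eventually (gt_mem_nhds _)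
    rw [Real.tan_pi_div_four]; norm_num
  obtain ⟨δ, hδ, hball⟩ := Metric.eventually_nhds_iff.mp hev
  refine ⟨δ / 2, by positivity, fun x hx0 hx => (hball ?_).le⟩
  rw [Real.dist_eq]
  have : Real.pi / 4 + x - Real.pi / 4 = x := by ring
  rw [this, abs_of_nonneg hx0]
  linarith

/-- **Closed curves with prescribed speed and holonomy.** -/
lemma exists_curve (q : ℝ → ℝ) (hq : ContDiff ℝ ∞ q) (pq : Function.Periodic q 1)
    (hq20 : ∀ x, 20 * Real.pi ≤ q x) (γ : ℝ) :
    ∃ (φ W : ℝ → ℝ) (m1 m2 : ℤ), ContDiff ℝ ∞ φ ∧ ContDiff ℝ ∞ W ∧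
      Function.Periodic φ 1 ∧ Function.Periodic W 1 ∧
      (∀ x, φ x ∈ Icc (Real.pi / 12) (5 * Real.pi / 12)) ∧
      (∀ x, W x ^ 2 + (deriv φ x) ^ 2 = q x ^ 2) ∧
      (∫ x in (0:ℝ)..1, W x * (Real.sin (φ x) / Real.cos (φ x)) = 2 * Real.pi * (m1 - γ)) ∧
      (∫ x in (0:ℝ)..1, W x * (Real.cos (φ x) / Real.sin (φ x)) = 2 * Real.pi * (γ - m2)) := by
  have hpi := Real.pi_pos
  set I0 : ℝ := ∫ x in (0:ℝ)..1, q x with hI0
  have hI20 : 20 * Real.pi ≤ I0 := const_le_int hq.continuous fun x _ => hq20 x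
  have hI0pos : 0 < I0 := by linarith
  set m1 : ℤ := ⌊I0 / (2 * Real.pi) + γ⌋ with hm1
  set m2 : ℤ := ⌈γ - I0 / (2 * Real.pi)⌉ with hm2
  set T1 : ℝ := 2 * Real.pi * (m1 - γ) with hT1
  set T2 : ℝ := 2 * Real.pi * (γ - m2) with hT2
  have h2pi : (0:ℝ) < 2 * Real.pi := by positivity
  have hT1le : T1 ≤ I0 := by
    have h := Int.floor_le (I0 / (2 * Real.pi) + γ)
    have h' : (m1 : ℝ) - γ ≤ I0 / (2 * Real.pi) := by linarith
    calc T1 = 2 * Real.pi * (m1 - γ) := rfl
      _ ≤ 2 * Real.pi * (I0 / (2 * Real.pi)) := mul_le_mul_of_nonneg_left h' h2pi.le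
      _ = I0 := by field_simp
  have hT1ge : I0 - 2 * Real.pi ≤ T1 := by
    have h := Int.lt_floor_add_one (I0 / (2 * Real.pi) + γ)
    have h' : I0 / (2 * Real.pi) - 1 ≤ (m1 : ℝ) - γ := by linarith
    calc I0 - 2 * Real.pi = 2 * Real.pi * (I0 / (2 * Real.pi) - 1) := by field_simp
      _ ≤ 2 * Real.pi * (m1 - γ) := mul_le_mul_of_nonneg_left h' h2pi.le
  have hT2le : T2 ≤ I0 := by
    have h := Int.le_ceil (γ - I0 / (2 * Real.pi))
    have h' : γ - (m2 : ℝ) ≤ I0 / (2 * Real.pi) := by linarith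
    calc T2 = 2 * Real.pi * (γ - m2) := rfl
      _ ≤ 2 * Real.pi * (I0 / (2 * Real.pi)) := mul_le_mul_of_nonneg_left h' h2pi.le
      _ = I0 := by field_simp
  have hT2ge : I0 - 2 * Real.pi ≤ T2 := by
    have h := Int.ceil_lt_add_one (γ - I0 / (2 * Real.pi))
    have h' : I0 / (2 * Real.pi) - 1 ≤ γ - (m2 : ℝ) := by linarith
    calc I0 - 2 * Real.pi = 2 * Real.pi * (I0 / (2 * Real.pi) - 1) := by field_simp
      _ ≤ 2 * Real.pi * (γ - m2) := mul_le_mul_of_nonneg_left h' h2pi.le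
  have ht1 : T1 / I0 ∈ Icc (9 / 10 : ℝ) 1 := by
    constructor
    · rw [le_div_iff₀ hI0pos]; linarith
    · rw [div_le_one hI0pos]; exact hT1le
  have ht2 : T2 / I0 ∈ Icc (9 / 10 : ℝ) 1 := by
    constructor
    · rw [le_div_iff₀ hI0pos]; linarith
    · rw [div_le_one hI0pos]; exact hT2le
  obtain ⟨δ, hδ, hδtan⟩ := exists_small_angle
  set ε0 : ℝ := min (Real.pi / 24) δ with hε0
  have hε0pos : 0 < ε0 := lt_min (by positivity) hδ
  set k : ℕ := ⌈I0 / (2 * Real.pi * ε0)⌉₊ + 1 with hk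
  have hk1 : 1 ≤ k := by omega
  have hkpos : (0:ℝ) < k := by exact_mod_cast hk1
  have hkge : I0 / (2 * Real.pi * ε0) ≤ k := by
    have := Nat.le_ceil (I0 / (2 * Real.pi * ε0))
    rw [hk]; push_cast; linarith
  set ε : ℝ := I0 / (2 * Real.pi * k) with hε
  have hεpos : 0 < ε := by positivity
  have hεle : ε ≤ ε0 := by
    rw [hε, div_le_iff₀ (by positivity)]
    rw [div_le_iff₀ (by positivity)] at hkge
    nlinarith
  obtain ⟨a0, ha0, τ, hτ, hJ1, hJ2⟩ := closing k hk1 ε hεpos.le (le_trans hεle (min_le_left _ _))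
    (hδtan ε hεpos.le (le_trans hεle (min_le_right _ _))) (T1 / I0) (T2 / I0) ht1 ht2
  have hε24 : ε ≤ Real.pi / 24 := le_trans hεle (min_le_left _ _)
  -- the reparametrisation
  set s : ℝ → ℝ := fun x => (∫ t in (0:ℝ)..x, q t) / I0 with hs
  have hs_smooth : ContDiff ℝ ∞ s := (prim_contDiff hq).div_const I0
  have hs_deriv : ∀ x, HasDerivAt s (q x / I0) x := fun x =>
    (prim_hasDerivAt hq.continuous x).div_const I0
  have hs_per : ∀ x, s (x + 1) = s x + 1 := by
    intro x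
    simp only [hs]
    rw [prim_periodic hq.continuous pq x, add_div, ← hI0, div_self hI0pos.ne']
  have hs0 : s 0 = 0 := by simp [hs]
  have hs1 : s 1 = 1 := by simp only [hs]; rw [← hI0, div_self hI0pos.ne']
  have hrange : ∀ σ, argf k ε a0 τ σ ∈ Icc (Real.pi / 12) (5 * Real.pi / 12) := by
    intro σ
    have h1 := le_arg k hεpos.le hτ a0 σ
    have h2 := arg_le k hεpos.le hτ a0 σ
    constructor <;> linarith [ha0.1, ha0.2]
  set φ : ℝ → ℝ := fun x => argf k ε a0 τ (s x) with hφ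
  set Vx : ℝ → ℝ := fun x => Vf k τ (s x) with hVx
  set W : ℝ → ℝ := fun x => q x * Vx x with hW
  have hφ_smooth : ContDiff ℝ ∞ φ := by
    simp only [hφ, argf]
    exact contDiff_const.add (contDiff_const.mul (Real.contDiff_sin.comp (contDiff_const.mul hs_smooth)))
  have hVpos : ∀ x, 0 < 1 - τ ^ 2 * Real.cos (2 * Real.pi * k * s x) ^ 2 := by
    intro x
    have := tau_cos_le hτ (2 * Real.pi * k * s x)
    linarith
  have hV_smooth : ContDiff ℝ ∞ Vx := by
    simp only [hVx, Vf]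
    apply ContDiff.sqrt
    · exact contDiff_const.sub (contDiff_const.mul
        ((Real.contDiff_cos.comp (contDiff_const.mul hs_smooth)).pow 2))
    · intro x; exact (hVpos x).ne'
  have hW_smooth : ContDiff ℝ ∞ W := hq.mul hV_smooth
  have hshift : ∀ x, 2 * Real.pi * k * s (x + 1) = 2 * Real.pi * k * s x + k * (2 * Real.pi) := by
    intro x; rw [hs_per]; ring
  have hφ_per : Function.Periodic φ 1 := by
    intro x
    simp only [hφ, argf]
    rw [hshift, Real.sin_add_nat_mul_two_pi]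
  have hV_per : Function.Periodic Vx 1 := by
    intro x
    simp only [hVx, Vf]
    rw [hshift, Real.cos_add_nat_mul_two_pi]
  have hW_per : Function.Periodic W 1 := by
    intro x
    simp only [hW]
    rw [pq x, hV_per x]
  have hφ_deriv : ∀ x, deriv φ x = τ * q x * Real.cos (2 * Real.pi * k * s x) := by
    intro x
    have h1 : HasDerivAt (fun x => 2 * Real.pi * k * s x) (2 * Real.pi * k * (q x / I0)) x :=
      (hs_deriv x).const_mul _
    have h2 := (h1.sin.const_mul (τ * ε)).const_add a0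
    have h3 : deriv φ x = τ * ε * (Real.cos (2 * Real.pi * k * s x) * (2 * Real.pi * k * (q x / I0))) :=
      h2.deriv
    rw [h3, hε]
    field_simp
  refine ⟨φ, W, m1, m2, hφ_smooth, hW_smooth, hφ_per, hW_per, fun x => hrange (s x), ?_, ?_, ?_⟩
  · intro x
    rw [hφ_deriv]
    simp only [hW, hVx, Vf]
    rw [mul_pow, Real.sq_sqrt (hVpos x).le]
    ring
  · -- first integral
    set h1 : ℝ → ℝ := fun σ => Vf k τ σ * tanc (argf k ε a0 τ σ) with hh1
    have hh1c : Continuous h1 := (continuous_Vf k τ).mul (continuous_tanc.comp (continuous_argf k ε a0 τ))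
    have hpt : ∀ x, W x * (Real.sin (φ x) / Real.cos (φ x)) = I0 * ((h1 ∘ s) x * (q x / I0)) := by
      intro x
      simp only [hh1, Function.comp, hW, hVx, hφ]
      rw [tanc_eq (hrange (s x)), Real.tan_eq_sin_div_cos]
      field_simp
    simp_rw [hpt]
    rw [intervalIntegral.integral_const_mul,
      intervalIntegral.integral_comp_mul_deriv (fun x _ => hs_deriv x)
        ((hq.continuous.div_const I0).continuousOn) hh1c, hs0, hs1]
    have : ∫ σ in (0:ℝ)..1, h1 σ = T1 / I0 := hJ1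
    rw [this, mul_div_cancel₀ _ hI0pos.ne']
  · set h2 : ℝ → ℝ := fun σ => Vf k τ σ * (tanc (argf k ε a0 τ σ))⁻¹ with hh2
    have hh2c : Continuous h2 := (continuous_Vf k τ).mul
      ((continuous_tanc.comp (continuous_argf k ε a0 τ)).inv₀ fun σ => (tanc_pos _).ne')
    have hpt : ∀ x, W x * (Real.cos (φ x) / Real.sin (φ x)) = I0 * ((h2 ∘ s) x * (q x / I0)) := by
      intro x
      simp only [hh2, Function.comp, hW, hVx, hφ]
      rw [tanc_eq (hrange (s x)), Real.tan_eq_sin_div_cos, inv_div]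
      field_simp
    simp_rw [hpt]
    rw [intervalIntegral.integral_const_mul,
      intervalIntegral.integral_comp_mul_deriv (fun x _ => hs_deriv x)
        ((hq.continuous.div_const I0).continuousOn) hh2c, hs0, hs1]
    have : ∫ σ in (0:ℝ)..1, h2 σ = T2 / I0 := hJ2
    rw [this, mul_div_cancel₀ _ hI0pos.ne']

end

end Vale.Agent.Lib.P205
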