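import Mathlib

/-!
# P205: the closing lemma

A two-parameter intermediate value argument producing closed curves with prescribed
`∫ V tan` and `∫ V cot`.
-/

open Set Real

namespace Vale.Agent.Lib.P205

noncomputable section

lemma two_param_ivt (J1 J2 : ℝ × ℝ → ℝ) (lo hi τ1 T1 T2 : ℝ) (hlohi : lo ≤ hi) (hτ : 0 ≤ τ1)
    (c1 : Continuous J1) (c2 : Continuous J2)
    (m1 : ∀ τ ∈ Icc 0 τ1, ∀ a ∈ Icc lo hi, ∀ b ∈ Icc lo hi, a < b → J1 (a, τ) < J1 (b, τ))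
    (m2 : ∀ τ ∈ Icc 0 τ1, ∀ a ∈ Icc lo hi, ∀ b ∈ Icc lo hi, a < b → J2 (b, τ) < J2 (a, τ))
    (r1 : ∀ τ ∈ Icc 0 τ1, J1 (lo, τ) ≤ T1 ∧ T1 ≤ J1 (hi, τ))
    (h0 : ∃ a ∈ Icc lo hi, T1 ≤ J1 (a, 0) ∧ T2 ≤ J2 (a, 0))
    (h1 : ∃ a ∈ Icc lo hi, J1 (a, τ1) ≤ T1 ∧ J2 (a, τ1) ≤ T2) :
    ∃ a ∈ Icc lo hi, ∃ τ ∈ Icc 0 τ1, J1 (a, τ) = T1 ∧ J2 (a, τ) = T2 := by
  set K : Set (ℝ × ℝ) := Icc lo hi ×ˢ Icc 0 τ1 with hK
  have hKc : IsCompact K := isCompact_Icc.prod isCompact_Icc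
  set P : Set (ℝ × ℝ) := K ∩ (J1 ⁻¹' Ici T1 ∩ J2 ⁻¹' Ici T2) with hP
  set N : Set (ℝ × ℝ) := K ∩ (J1 ⁻¹' Iic T1 ∩ J2 ⁻¹' Iic T2) with hN
  have hPc : IsCompact P :=
    hKc.inter_right ((isClosed_Ici.preimage c1).inter (isClosed_Ici.preimage c2))
  have hNc : IsCompact N :=
    hKc.inter_right ((isClosed_Iic.preimage c1).inter (isClosed_Iic.preimage c2))
  have hA : IsClosed (Prod.snd '' P) := (hPc.image continuous_snd).isClosed
  have hB : IsClosed (Prod.snd '' N) := (hNc.image continuous_snd).isClosed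
  have hcover : Icc 0 τ1 ⊆ Prod.snd '' P ∪ Prod.snd '' N := by
    intro τ hτm
    obtain ⟨hl, hh⟩ := r1 τ hτm
    have hcont : ContinuousOn (fun a => J1 (a, τ)) (Icc lo hi) :=
      (c1.comp (by fun_prop : Continuous fun a : ℝ => (a, τ))).continuousOn
    obtain ⟨a, ha, haT⟩ := intermediate_value_Icc hlohi hcont ⟨hl, hh⟩
    rcases le_total T2 (J2 (a, τ)) with h | h
    · left
      exact ⟨(a, τ), ⟨⟨ha, hτm⟩, ⟨by simp [haT], h⟩⟩, rfl⟩
    · right
      exact ⟨(a, τ), ⟨⟨ha, hτm⟩, ⟨by simp [haT], h⟩⟩, rfl⟩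
  have hne1 : (Icc 0 τ1 ∩ Prod.snd '' P).Nonempty := by
    obtain ⟨a, ha, h1', h2'⟩ := h0
    exact ⟨0, ⟨le_refl _, hτ⟩, ⟨(a, 0), ⟨⟨ha, ⟨le_refl _, hτ⟩⟩, ⟨h1', h2'⟩⟩, rfl⟩⟩
  have hne2 : (Icc 0 τ1 ∩ Prod.snd '' N).Nonempty := by
    obtain ⟨a, ha, h1', h2'⟩ := h1
    exact ⟨τ1, ⟨hτ, le_refl _⟩, ⟨(a, τ1), ⟨⟨ha, ⟨hτ, le_refl _⟩⟩, ⟨h1', h2'⟩⟩, rfl⟩⟩
  obtain ⟨τ, hτm, ⟨⟨a, τ'⟩, ⟨⟨ha, -⟩, hp1, hp2⟩, rfl⟩, ⟨⟨b, τ''⟩, ⟨⟨hb, -⟩, hb1, hb2⟩, hbτ⟩⟩ :=
    isPreconnected_closed_iff.mp isPreconnected_Icc _ _ hA hB hcover hne1 hne2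
  simp only at hbτ
  subst hbτ
  simp only [mem_preimage, mem_Ici, mem_Iic] at hp1 hp2 hb1 hb2
  have hab : a = b := by
    rcases lt_trichotomy a b with h | h | h
    · have := m1 _ hτm a ha b hb h
      linarith
    · exact h
    · have := m2 _ hτm b hb a ha h
      linarith
  subst hab
  exact ⟨a, ha, _, hτm, le_antisymm hb1 hp1, le_antisymm hb2 hp2⟩


/-- clamped tangent -/
def tanc (x : ℝ) : ℝ := tan (max (π / 12) (min x (5 * π / 12)))

lemma clamp_mem (x : ℝ) : max (π / 12) (min x (5 * π / 12)) ∈ Icc (π / 12) (5 * π / 12) := by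
  constructor
  · exact le_max_left _ _
  · apply max_le
    · nlinarith [pi_pos]
    · exact min_le_right _ _

lemma Icc_sub_Ioo : Icc (π / 12) (5 * π / 12) ⊆ Ioo (-(π / 2)) (π / 2) := by
  intro x hx
  constructor <;> nlinarith [pi_pos, hx.1, hx.2]

lemma continuous_tanc : Continuous tanc := by
  unfold tanc
  apply continuousOn_tan_Ioo.comp_continuous (by fun_prop)
  intro x
  exact Icc_sub_Ioo (clamp_mem x)

lemma tanc_eq {x : ℝ} (hx : x ∈ Icc (π / 12) (5 * π / 12)) : tanc x = tan x := by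
  unfold tanc
  rw [min_eq_left hx.2, max_eq_right hx.1]

lemma tanc_pos (x : ℝ) : 0 < tanc x := by
  unfold tanc
  have h := clamp_mem x
  apply tan_pos_of_pos_of_lt_pi_div_two
  · nlinarith [pi_pos, h.1]
  · nlinarith [pi_pos, h.2]

lemma tan_mono' {x y : ℝ} (hx : x ∈ Icc (π / 12) (5 * π / 12)) (hy : y ∈ Icc (π / 12) (5 * π / 12))
    (h : x ≤ y) : tan x ≤ tan y :=
  strictMonoOn_tan.monotoneOn (Icc_sub_Ioo hx) (Icc_sub_Ioo hy) h

lemma tan_smono' {x y : ℝ} (hx : x ∈ Icc (π / 12) (5 * π / 12)) (hy : y ∈ Icc (π / 12) (5 * π / 12))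
    (h : x < y) : tan x < tan y :=
  strictMonoOn_tan (Icc_sub_Ioo hx) (Icc_sub_Ioo hy) h

/-- speed factor -/
def Vf (k : ℕ) (τ s : ℝ) : ℝ := √(1 - τ ^ 2 * cos (2 * π * k * s) ^ 2)

/-- latitude -/
def argf (k : ℕ) (ε a τ s : ℝ) : ℝ := a + τ * ε * sin (2 * π * k * s)

def J1 (k : ℕ) (ε : ℝ) (p : ℝ × ℝ) : ℝ := ∫ s in (0:ℝ)..1, Vf k p.2 s * tanc (argf k ε p.1 p.2 s)
def J2 (k : ℕ) (ε : ℝ) (p : ℝ × ℝ) : ℝ := ∫ s in (0:ℝ)..1, Vf k p.2 s * (tanc (argf k ε p.1 p.2 s))⁻¹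

lemma continuous_J1 (k : ℕ) (ε : ℝ) : Continuous (J1 k ε) := by
  unfold J1
  apply intervalIntegral.continuous_parametric_intervalIntegral_of_continuous'
  unfold Vf argf Function.uncurry
  have := continuous_tanc
  fun_prop

lemma continuous_J2 (k : ℕ) (ε : ℝ) : Continuous (J2 k ε) := by
  unfold J2
  apply intervalIntegral.continuous_parametric_intervalIntegral_of_continuous'
  unfold Vf argf Function.uncurry
  have h := continuous_tanc
  apply Continuous.mul (by fun_prop)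
  apply Continuous.inv₀ (by fun_prop)
  intro x
  exact (tanc_pos _).ne'

lemma int_le_const {f : ℝ → ℝ} (hf : Continuous f) {c : ℝ} (h : ∀ s ∈ Icc (0:ℝ) 1, f s ≤ c) :
    ∫ s in (0:ℝ)..1, f s ≤ c := by
  have hc : IntervalIntegrable (fun _ : ℝ => c) MeasureTheory.volume 0 1 := intervalIntegrable_const
  have := intervalIntegral.integral_mono_on (by norm_num : (0:ℝ) ≤ 1) (hf.intervalIntegrable 0 1)
    hc h
  simpa using this

lemma const_le_int {f : ℝ → ℝ} (hf : Continuous f) {c : ℝ} (h : ∀ s ∈ Icc (0:ℝ) 1, c ≤ f s) :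
    c ≤ ∫ s in (0:ℝ)..1, f s := by
  have hc : IntervalIntegrable (fun _ : ℝ => c) MeasureTheory.volume 0 1 := intervalIntegrable_const
  have := intervalIntegral.integral_mono_on (by norm_num : (0:ℝ) ≤ 1)
    hc (hf.intervalIntegrable 0 1) h
  simpa using this

lemma continuous_Vf (k : ℕ) (τ : ℝ) : Continuous (Vf k τ) := by unfold Vf; fun_prop

lemma continuous_argf (k : ℕ) (ε a τ : ℝ) : Continuous (argf k ε a τ) := by unfold argf; fun_prop

lemma Vf_le_one (k : ℕ) (τ s : ℝ) : Vf k τ s ≤ 1 := by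
  unfold Vf
  apply sqrt_le_iff.mpr
  constructor
  · norm_num
  · nlinarith [sq_nonneg (τ * cos (2 * π * k * s))]

lemma Vf_nonneg (k : ℕ) (τ s : ℝ) : 0 ≤ Vf k τ s := sqrt_nonneg _

lemma tau_cos_le {τ : ℝ} (hτ : τ ∈ Icc (0:ℝ) (7 / 10)) (x : ℝ) : τ ^ 2 * cos x ^ 2 ≤ 49 / 100 := by
  have h1 : cos x ^ 2 ≤ 1 := cos_sq_le_one x
  have h2 : τ ^ 2 ≤ 49 / 100 := by nlinarith [hτ.1, hτ.2]
  nlinarith [sq_nonneg τ, sq_nonneg (cos x)]

lemma Vf_ge (k : ℕ) {τ : ℝ} (hτ : τ ∈ Icc (0:ℝ) (7 / 10)) (s : ℝ) : 7 / 10 ≤ Vf k τ s := by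
  unfold Vf
  apply le_sqrt_of_sq_le
  have := tau_cos_le hτ (2 * π * k * s)
  linarith

lemma Vf_le (k : ℕ) {τ : ℝ} (hτ : τ ∈ Icc (0:ℝ) (7 / 10)) (s : ℝ) :
    Vf k τ s ≤ 1 - τ ^ 2 * cos (2 * π * k * s) ^ 2 / 2 := by
  unfold Vf
  have h := tau_cos_le hτ (2 * π * k * s)
  set z := τ ^ 2 * cos (2 * π * k * s) ^ 2 with hz
  have hz0 : 0 ≤ z := by positivity
  apply sqrt_le_iff.mpr
  constructor
  · linarith
  · nlinarith

lemma arg_le (k : ℕ) {ε τ : ℝ} (hε : 0 ≤ ε) (hτ : τ ∈ Icc (0:ℝ) (7 / 10)) (a s : ℝ) :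
    argf k ε a τ s ≤ a + ε := by
  unfold argf
  have h1 := sin_le_one (2 * π * k * s)
  have h2 : τ * ε * sin (2 * π * k * s) ≤ τ * ε * 1 :=
    mul_le_mul_of_nonneg_left h1 (mul_nonneg hτ.1 hε)
  nlinarith [hτ.1, hτ.2]

lemma le_arg (k : ℕ) {ε τ : ℝ} (hε : 0 ≤ ε) (hτ : τ ∈ Icc (0:ℝ) (7 / 10)) (a s : ℝ) :
    a - ε ≤ argf k ε a τ s := by
  unfold argf
  have h1 := neg_one_le_sin (2 * π * k * s)
  have h2 : τ * ε * (-1) ≤ τ * ε * sin (2 * π * k * s) :=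
    mul_le_mul_of_nonneg_left h1 (mul_nonneg hτ.1 hε)
  nlinarith [hτ.1, hτ.2]

lemma int_cos_sq (k : ℕ) (hk : 1 ≤ k) : ∫ s in (0:ℝ)..1, cos (2 * π * k * s) ^ 2 = 1 / 2 := by
  have hc : (2 * π * k : ℝ) ≠ 0 := by
    have : (0:ℝ) < k := by exact_mod_cast hk
    positivity
  have := intervalIntegral.integral_comp_mul_left (a := 0) (b := 1) (fun x => cos x ^ 2) hc
  rw [this, integral_cos_sq]
  have hs : sin (2 * π * k * 1) = 0 := by
    have := sin_nat_mul_pi (2 * k)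
    rw [← this]; congr 1; push_cast; ring
  rw [hs]
  simp
  field_simp

lemma int_V_bound (k : ℕ) (hk : 1 ≤ k) {h : ℝ → ℝ} (hc : Continuous h)
    (hb : ∀ s, 0 ≤ h s ∧ h s ≤ 51 / 50) :
    ∫ s in (0:ℝ)..1, Vf k (7 / 10) s * h s ≤ 9 / 10 := by
  have hτ : (7 / 10 : ℝ) ∈ Icc (0:ℝ) (7 / 10) := ⟨by norm_num, le_refl _⟩
  have hg : Continuous fun s : ℝ => (51 / 50 : ℝ) - (51 / 50) * (49 / 200) * cos (2 * π * k * s) ^ 2 := by
    fun_prop
  have h1 : ∫ s in (0:ℝ)..1, Vf k (7 / 10) s * h s ≤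
      ∫ s in (0:ℝ)..1, ((51 / 50 : ℝ) - (51 / 50) * (49 / 200) * cos (2 * π * k * s) ^ 2) := by
    apply intervalIntegral.integral_mono_on (by norm_num)
      (((continuous_Vf k _).mul hc).intervalIntegrable 0 1) (hg.intervalIntegrable 0 1)
    intro s _
    have hv := Vf_le k hτ s
    have hv0 := Vf_nonneg k (7 / 10) s
    have := hb s
    calc Vf k (7 / 10) s * h s ≤ Vf k (7 / 10) s * (51 / 50) :=
          mul_le_mul_of_nonneg_left this.2 hv0
      _ ≤ (1 - (7 / 10) ^ 2 * cos (2 * π * k * s) ^ 2 / 2) * (51 / 50) :=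
          mul_le_mul_of_nonneg_right hv (by norm_num)
      _ = _ := by ring
  have h2 : ∫ s in (0:ℝ)..1, ((51 / 50 : ℝ) - (51 / 50) * (49 / 200) * cos (2 * π * k * s) ^ 2)
      = 51 / 50 - (51 / 50) * (49 / 200) * (1 / 2) := by
    rw [intervalIntegral.integral_sub intervalIntegrable_const
      ((by fun_prop : Continuous fun s : ℝ => (51 / 50 : ℝ) * (49 / 200) * cos (2 * π * k * s) ^ 2).intervalIntegrable 0 1),
      intervalIntegral.integral_const_mul, int_cos_sq k hk]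
    simp
  rw [h2] at h1
  linarith

lemma sqrt3_bounds : (10 / 7 : ℝ) ≤ √3 := by
  apply le_sqrt_of_sq_le; norm_num

lemma closing (k : ℕ) (hk : 1 ≤ k) (ε : ℝ) (hε0 : 0 ≤ ε) (hε1 : ε ≤ π / 24)
    (hε2 : tan (π / 4 + ε) ≤ 51 / 50)
    (t1 t2 : ℝ) (ht1 : t1 ∈ Icc (9 / 10 : ℝ) 1) (ht2 : t2 ∈ Icc (9 / 10 : ℝ) 1) :
    ∃ a ∈ Icc (π / 6 - ε) (π / 3 + ε), ∃ τ ∈ Icc (0:ℝ) (7 / 10),
      J1 k ε (a, τ) = t1 ∧ J2 k ε (a, τ) = t2 := by
  have hpi := pi_pos
  have hrange : ∀ a ∈ Icc (π / 6 - ε) (π / 3 + ε), ∀ τ ∈ Icc (0:ℝ) (7 / 10), ∀ s,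
      argf k ε a τ s ∈ Icc (π / 12) (5 * π / 12) := by
    intro a ha τ hτ s
    have h1 := le_arg k hε0 hτ a s
    have h2 := arg_le k hε0 hτ a s
    constructor <;> linarith [ha.1, ha.2]
  have hcont1 : ∀ a τ, Continuous fun s => Vf k τ s * tanc (argf k ε a τ s) := fun a τ =>
    (continuous_Vf k τ).mul (continuous_tanc.comp (continuous_argf k ε a τ))
  have hcont2 : ∀ a τ, Continuous fun s => Vf k τ s * (tanc (argf k ε a τ s))⁻¹ := fun a τ =>
    (continuous_Vf k τ).mul ((continuous_tanc.comp (continuous_argf k ε a τ)).inv₀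
      fun s => (tanc_pos _).ne')
  apply two_param_ivt (J1 k ε) (J2 k ε) _ _ _ t1 t2 (by linarith) (by norm_num)
    (continuous_J1 k ε) (continuous_J2 k ε)
  · -- strict monotonicity of J1
    intro τ hτ a ha b hb hab
    have hpt : ∀ s, Vf k τ s * tanc (argf k ε a τ s) < Vf k τ s * tanc (argf k ε b τ s) := by
      intro s
      have hv : 0 < Vf k τ s := lt_of_lt_of_le (by norm_num) (Vf_ge k hτ s)
      apply mul_lt_mul_of_pos_left _ hv
      rw [tanc_eq (hrange a ha τ hτ s), tanc_eq (hrange b hb τ hτ s)]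
      apply tan_smono' (hrange a ha τ hτ s) (hrange b hb τ hτ s)
      unfold argf; linarith
    exact intervalIntegral.integral_lt_integral_of_continuousOn_of_le_of_exists_lt (by norm_num)
      (hcont1 a τ).continuousOn (hcont1 b τ).continuousOn (fun s _ => (hpt s).le)
      ⟨0, ⟨le_refl _, by norm_num⟩, hpt 0⟩
  · -- strict antitonicity of J2
    intro τ hτ a ha b hb hab
    have hpt : ∀ s, Vf k τ s * (tanc (argf k ε b τ s))⁻¹ < Vf k τ s * (tanc (argf k ε a τ s))⁻¹ := by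
      intro s
      have hv : 0 < Vf k τ s := lt_of_lt_of_le (by norm_num) (Vf_ge k hτ s)
      apply mul_lt_mul_of_pos_left _ hv
      apply inv_strictAnti₀ (tanc_pos _)
      rw [tanc_eq (hrange a ha τ hτ s), tanc_eq (hrange b hb τ hτ s)]
      apply tan_smono' (hrange a ha τ hτ s) (hrange b hb τ hτ s)
      unfold argf; linarith
    exact intervalIntegral.integral_lt_integral_of_continuousOn_of_le_of_exists_lt (by norm_num)
      (hcont2 b τ).continuousOn (hcont2 a τ).continuousOn (fun s _ => (hpt s).le)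
      ⟨0, ⟨le_refl _, by norm_num⟩, hpt 0⟩
  · -- range
    intro τ hτ
    have hlo : (π / 6 - ε) ∈ Icc (π / 6 - ε) (π / 3 + ε) := ⟨le_refl _, by linarith⟩
    have hhi : (π / 3 + ε) ∈ Icc (π / 6 - ε) (π / 3 + ε) := ⟨by linarith, le_refl _⟩
    have h6 : π / 6 ∈ Icc (π / 12) (5 * π / 12) := ⟨by linarith, by linarith⟩
    have h3 : π / 3 ∈ Icc (π / 12) (5 * π / 12) := ⟨by linarith, by linarith⟩
    constructor
    · refine le_trans (int_le_const (hcont1 _ τ) (c := 7 / 10) ?_) (by linarith [ht1.1])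
      intro s _
      have harg := hrange _ hlo τ hτ s
      rw [tanc_eq harg]
      have h1 : tan (argf k ε (π / 6 - ε) τ s) ≤ tan (π / 6) :=
        tan_mono' harg h6 (by have := arg_le k hε0 hτ (π / 6 - ε) s; linarith)
      rw [tan_pi_div_six] at h1
      have h2 : 1 / √3 ≤ 7 / 10 := by
        rw [div_le_iff₀ (by positivity)]
        nlinarith [sqrt3_bounds]
      have h3' : 0 ≤ tan (argf k ε (π / 6 - ε) τ s) := by
        rw [← tanc_eq harg]; exact (tanc_pos _).le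
      calc Vf k τ s * tan (argf k ε (π / 6 - ε) τ s) ≤ 1 * tan (argf k ε (π / 6 - ε) τ s) :=
            mul_le_mul_of_nonneg_right (Vf_le_one k τ s) h3'
        _ ≤ 7 / 10 := by linarith
    · refine le_trans ht1.2 (const_le_int (hcont1 _ τ) ?_)
      intro s _
      have harg := hrange _ hhi τ hτ s
      rw [tanc_eq harg]
      have h1 : tan (π / 3) ≤ tan (argf k ε (π / 3 + ε) τ s) :=
        tan_mono' h3 harg (by have := le_arg k hε0 hτ (π / 3 + ε) s; linarith)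
      rw [tan_pi_div_three] at h1
      have hv := Vf_ge k hτ s
      have := sqrt3_bounds
      nlinarith
  · -- τ = 0
    have h6 : π / 6 ∈ Icc (π / 12) (5 * π / 12) := ⟨by linarith, by linarith⟩
    have h3 : π / 3 ∈ Icc (π / 12) (5 * π / 12) := ⟨by linarith, by linarith⟩
    have htan : tan (arctan t1) = t1 := tan_arctan t1
    have hs3 := sqrt3_bounds
    have ha1 : π / 6 ≤ arctan t1 := by
      by_contra hcon
      push Not at hcon
      have h1 : tan (arctan t1) < tan (π / 6) :=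
        strictMonoOn_tan ⟨neg_pi_div_two_lt_arctan t1, arctan_lt_pi_div_two t1⟩ (Icc_sub_Ioo h6) hcon
      rw [htan, tan_pi_div_six] at h1
      have h2 : 1 / √3 ≤ 7 / 10 := by
        rw [div_le_iff₀ (by positivity)]
        nlinarith
      linarith [ht1.1]
    have ha2 : arctan t1 ≤ π / 3 := by
      by_contra hcon
      push Not at hcon
      have h1 : tan (π / 3) < tan (arctan t1) :=
        strictMonoOn_tan (Icc_sub_Ioo h3) ⟨neg_pi_div_two_lt_arctan t1, arctan_lt_pi_div_two t1⟩ hcon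
      rw [htan, tan_pi_div_three] at h1
      linarith [ht1.2]
    have hmem : arctan t1 ∈ Icc (π / 12) (5 * π / 12) := ⟨by linarith, by linarith⟩
    refine ⟨arctan t1, ⟨by linarith, by linarith⟩, ?_, ?_⟩
    · have : J1 k ε (arctan t1, 0) = t1 := by
        simp [J1, Vf, argf, tanc_eq hmem, htan]
      rw [this]
    · have : J2 k ε (arctan t1, 0) = t1⁻¹ := by
        simp [J2, Vf, argf, tanc_eq hmem, htan]
      rw [this]
      have h1 : 1 ≤ t1⁻¹ := (one_le_inv₀ (by linarith [ht1.1])).mpr ht1.2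
      linarith [ht2.2]
  · -- τ = 7/10
    have hτ : (7 / 10 : ℝ) ∈ Icc (0:ℝ) (7 / 10) := ⟨by norm_num, le_refl _⟩
    have h4 : π / 4 ∈ Icc (π / 6 - ε) (π / 3 + ε) := ⟨by linarith, by linarith⟩
    have hp : π / 4 + ε ∈ Icc (π / 12) (5 * π / 12) := ⟨by linarith, by linarith⟩
    have hm : π / 4 - ε ∈ Icc (π / 12) (5 * π / 12) := ⟨by linarith, by linarith⟩
    refine ⟨π / 4, h4, ?_, ?_⟩
    · refine le_trans (int_V_bound k hk (continuous_tanc.comp (continuous_argf k ε (π / 4) (7 / 10)))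
        ?_) ht1.1
      intro s
      refine ⟨(tanc_pos _).le, ?_⟩
      have harg := hrange _ h4 _ hτ s
      rw [tanc_eq harg]
      exact le_trans (tan_mono' harg hp (arg_le k hε0 hτ _ s)) hε2
    · refine le_trans (int_V_bound k hk ((continuous_tanc.comp
        (continuous_argf k ε (π / 4) (7 / 10))).inv₀ fun s => (tanc_pos _).ne') ?_) ht2.1
      intro s
      refine ⟨(inv_pos.mpr (tanc_pos _)).le, ?_⟩
      have harg := hrange _ h4 _ hτ s
      rw [tanc_eq harg]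
      have h1 : tan (π / 4 - ε) ≤ tan (argf k ε (π / 4) (7 / 10) s) :=
        tan_mono' hm harg (le_arg k hε0 hτ _ s)
      have h0 : 0 < tan (π / 4 - ε) := by rw [← tanc_eq hm]; exact tanc_pos _
      have h2 : (tan (π / 4 - ε))⁻¹ = tan (π / 4 + ε) := by
        rw [← tan_pi_div_two_sub]; congr 1; ring
      calc (tan (argf k ε (π / 4) (7 / 10) s))⁻¹ ≤ (tan (π / 4 - ε))⁻¹ := inv_anti₀ h0 h1
        _ ≤ 51 / 50 := by rw [h2]; exact hε2


end

end Vale.Agent.Lib.P205
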