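import Vale.Agent.Lib.P205.Assembly

/-!
# P205: every circle-invariant metric on the torus immerses isometrically in `ℝ⁴` (final step)
-/

open scoped ContDiff RealInnerProductSpace
open MeasureTheory Set

namespace Vale.Agent.Lib.P205

noncomputable section

theorem torus_circle_invariant (E M G : ℝ → ℝ)
    (hE : ContDiff ℝ ∞ E) (hM : ContDiff ℝ ∞ M) (hG : ContDiff ℝ ∞ G)
    (pE : Function.Periodic E 1) (pM : Function.Periodic M 1) (pG : Function.Periodic G 1)
    (posG : ∀ x, 0 < G x) (posdet : ∀ x, 0 < E x * G x - M x ^ 2) :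
    ∃ F : ℝ × ℝ → EuclideanSpace ℝ (Fin 4),
      ContDiff ℝ ∞ F ∧
      (∀ x y : ℝ, F (x + 1, y) = F (x, y)) ∧
      (∀ x y : ℝ, F (x, y + 1) = F (x, y)) ∧
      ∀ p v w : ℝ × ℝ, ⟪fderiv ℝ F p v, fderiv ℝ F p w⟫ =
        E p.1 * v.1 * w.1 + M p.1 * (v.1 * w.2 + v.2 * w.1) + G p.1 * v.2 * w.2 := by
  have hpi := Real.pi_pos
  have hGne : ∀ x, G x ≠ 0 := fun x => (posG x).ne'
  -- square root of G
  set g0 : ℝ → ℝ := fun x => √(G x) with hg0
  have hg0s : ContDiff ℝ ∞ g0 := hG.sqrt hGne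
  have pg0 : Function.Periodic g0 1 := fun x => by simp only [hg0, pG x]
  have hg0pos : ∀ x, 0 < g0 x := fun x => Real.sqrt_pos.mpr (posG x)
  have hg0sq : ∀ x, G x = g0 x ^ 2 := fun x => (Real.sq_sqrt (posG x).le).symm
  set d : ℝ → ℝ := deriv g0 with hd
  have hds : ContDiff ℝ ∞ d := (contDiff_infty_iff_deriv.mp hg0s).2
  have pd : Function.Periodic d 1 := periodic_deriv pg0
  -- the reduced coefficient
  set Δ : ℝ → ℝ := fun x => E x - M x ^ 2 / G x with hΔ
  have hΔs : ContDiff ℝ ∞ Δ := hE.sub ((hM.pow 2).div hG hGne)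
  have pΔ : Function.Periodic Δ 1 := fun x => by simp only [hΔ, pE x, pM x, pG x]
  have posΔ : ∀ x, 0 < Δ x := fun x => by
    have : Δ x = (E x * G x - M x ^ 2) / G x := by
      simp only [hΔ]; field_simp [hGne x]
    rw [this]; exact div_pos (posdet x) (posG x)
  obtain ⟨c0, hc0, hc0le⟩ := periodic_lower hΔs.continuous pΔ posΔ
  obtain ⟨C, hC, hCle⟩ := periodic_upper hds.continuous pd
  obtain ⟨Gm, hGm, hGmle⟩ := periodic_upper hG.continuous pG
  -- choice of the wrapping number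
  set B : ℝ := (C ^ 2 + (20 * Real.pi) ^ 2 * Gm) / c0 with hB
  have hBpos : 0 < B := by positivity
  obtain ⟨N, hN⟩ := exists_nat_gt (B + 1)
  have hN1 : (1:ℝ) ≤ N := by linarith
  set a : ℝ := 2 * Real.pi * N with ha
  have haN : (N : ℝ) ≤ a := by
    rw [ha]; nlinarith [Real.pi_gt_three]
  have hapos : 0 < a := by linarith
  have hasq : C ^ 2 + (20 * Real.pi) ^ 2 * Gm ≤ a ^ 2 * c0 := by
    have h1 : B ≤ a ^ 2 := by nlinarith
    have h2 : B * c0 = C ^ 2 + (20 * Real.pi) ^ 2 * Gm := by rw [hB]; field_simp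
    nlinarith
  -- the speed
  set Q : ℝ → ℝ := fun x => (a ^ 2 * Δ x - d x ^ 2) / G x with hQ
  have hQs : ContDiff ℝ ∞ Q := ((contDiff_const.mul hΔs).sub (hds.pow 2)).div hG hGne
  have pQ : Function.Periodic Q 1 := fun x => by simp only [hQ, pΔ x, pd x, pG x]
  have hQge : ∀ x, (20 * Real.pi) ^ 2 ≤ Q x := fun x => by
    have h1 : (d x) ^ 2 ≤ C ^ 2 := by
      rw [← sq_abs]; exact pow_le_pow_left₀ (abs_nonneg _) (hCle x) 2
    have h2 : G x ≤ Gm := le_trans (le_abs_self _) (hGmle x)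
    have h3 : a ^ 2 * c0 ≤ a ^ 2 * Δ x := mul_le_mul_of_nonneg_left (hc0le x) (by positivity)
    have h4 : (20 * Real.pi) ^ 2 * G x ≤ (20 * Real.pi) ^ 2 * Gm :=
      mul_le_mul_of_nonneg_left h2 (by positivity)
    simp only [hQ]
    rw [le_div_iff₀ (posG x)]
    linarith
  have hQpos : ∀ x, 0 < Q x := fun x => lt_of_lt_of_le (by positivity) (hQge x)
  set q : ℝ → ℝ := fun x => √(Q x) with hq
  have hqs : ContDiff ℝ ∞ q := hQs.sqrt (fun x => (hQpos x).ne')
  have pq : Function.Periodic q 1 := fun x => by simp only [hq, pQ x]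
  have hq20 : ∀ x, 20 * Real.pi ≤ q x := fun x => by
    simp only [hq]
    exact Real.le_sqrt_of_sq_le (hQge x)
  have hqsq : ∀ x, q x ^ 2 = Q x := fun x => Real.sq_sqrt (hQpos x).le
  -- the twist
  set κ : ℝ → ℝ := fun x => M x / G x with hκ
  have hκs : ContDiff ℝ ∞ κ := hM.div hG hGne
  have pκ : Function.Periodic κ 1 := fun x => by simp only [hκ, pM x, pG x]
  set c : ℝ := ∫ x in (0:ℝ)..1, κ x with hc
  obtain ⟨φ, W, m1, m2, hφs, hWs, pφ, pW, hφr, hWφ, hI1, hI2⟩ :=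
    exists_curve q hqs pq hq20 ((N : ℝ) * c)
  have hcos : ∀ x, 0 < Real.cos (φ x) := fun x => by
    apply Real.cos_pos_of_mem_Ioo
    constructor <;> linarith [(hφr x).1, (hφr x).2]
  have hsin : ∀ x, 0 < Real.sin (φ x) := fun x => by
    apply Real.sin_pos_of_mem_Ioo
    constructor <;> linarith [(hφr x).1, (hφr x).2]
  have hcoss : ContDiff ℝ ∞ (fun x => Real.cos (φ x)) := Real.contDiff_cos.comp hφs
  have hsins : ContDiff ℝ ∞ (fun x => Real.sin (φ x)) := Real.contDiff_sin.comp hφs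
  set t1 : ℝ → ℝ := fun x => W x * (Real.sin (φ x) / Real.cos (φ x)) with ht1
  set t2 : ℝ → ℝ := fun x => W x * (Real.cos (φ x) / Real.sin (φ x)) with ht2
  have ht1s : ContDiff ℝ ∞ t1 := hWs.mul (hsins.div hcoss fun x => (hcos x).ne')
  have ht2s : ContDiff ℝ ∞ t2 := hWs.mul (hcoss.div hsins fun x => (hsin x).ne')
  set A1 : ℝ → ℝ := fun x => a * κ x + t1 x with hA1
  set A2 : ℝ → ℝ := fun x => a * κ x - t2 x with hA2
  have hA1s : ContDiff ℝ ∞ A1 := (contDiff_const.mul hκs).add ht1s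
  have hA2s : ContDiff ℝ ∞ A2 := (contDiff_const.mul hκs).sub ht2s
  have pA1 : Function.Periodic A1 1 := fun x => by simp only [hA1, ht1, pκ x, pW x, pφ x]
  have pA2 : Function.Periodic A2 1 := fun x => by simp only [hA2, ht2, pκ x, pW x, pφ x]
  have hIA1 : ∫ x in (0:ℝ)..1, A1 x = m1 * (2 * Real.pi) := by
    simp only [hA1]
    rw [intervalIntegral.integral_add ((contDiff_const.mul hκs).continuous.intervalIntegrable _ _)
      (ht1s.continuous.intervalIntegrable _ _), intervalIntegral.integral_const_mul, ← hc]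
    have : ∫ x in (0:ℝ)..1, t1 x = 2 * Real.pi * (m1 - (N : ℝ) * c) := hI1
    rw [this, ha]; ring
  have hIA2 : ∫ x in (0:ℝ)..1, A2 x = m2 * (2 * Real.pi) := by
    simp only [hA2]
    rw [intervalIntegral.integral_sub ((contDiff_const.mul hκs).continuous.intervalIntegrable _ _)
      (ht2s.continuous.intervalIntegrable _ _), intervalIntegral.integral_const_mul, ← hc]
    have : ∫ x in (0:ℝ)..1, t2 x = 2 * Real.pi * ((N : ℝ) * c - m2) := hI2
    rw [this, ha]; ring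
  set α1 : ℝ → ℝ := fun u => ∫ t in (0:ℝ)..u, A1 t with hα1
  set α2 : ℝ → ℝ := fun u => ∫ t in (0:ℝ)..u, A2 t with hα2
  have hα1s : ContDiff ℝ ∞ α1 := prim_contDiff hA1s
  have hα2s : ContDiff ℝ ∞ α2 := prim_contDiff hA2s
  have hα1d : deriv α1 = A1 := prim_deriv hA1s.continuous
  have hα2d : deriv α2 = A2 := prim_deriv hA2s.continuous
  have hα1p : ∀ x, α1 (x + 1) = α1 x + m1 * (2 * Real.pi) := fun x => by
    simp only [hα1]; rw [prim_periodic hA1s.continuous pA1 x, hIA1]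
  have hα2p : ∀ x, α2 (x + 1) = α2 x + m2 * (2 * Real.pi) := fun x => by
    simp only [hα2]; rw [prim_periodic hA2s.continuous pA2 x, hIA2]
  set ρ1 : ℝ → ℝ := fun x => g0 x / a * Real.cos (φ x) with hρ1
  set ρ2 : ℝ → ℝ := fun x => g0 x / a * Real.sin (φ x) with hρ2
  have hρ1s : ContDiff ℝ ∞ ρ1 := (hg0s.div_const a).mul hcoss
  have hρ2s : ContDiff ℝ ∞ ρ2 := (hg0s.div_const a).mul hsins
  have pρ1 : Function.Periodic ρ1 1 := fun x => by simp only [hρ1, pg0 x, pφ x]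
  have pρ2 : Function.Periodic ρ2 1 := fun x => by simp only [hρ2, pg0 x, pφ x]
  have hg0d : ∀ x, HasDerivAt g0 (d x) x := fun x =>
    ((hg0s.differentiable (by simp)).differentiableAt).hasDerivAt
  have hφd : ∀ x, HasDerivAt φ (deriv φ x) x := fun x =>
    ((hφs.differentiable (by simp)).differentiableAt).hasDerivAt
  have hρ1d : ∀ x, deriv ρ1 x
      = d x / a * Real.cos (φ x) - g0 x / a * Real.sin (φ x) * deriv φ x := fun x => by
    have h := ((hg0d x).div_const a).mul (hφd x).cos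
    rw [show deriv ρ1 x = _ from h.deriv]; ring
  have hρ2d : ∀ x, deriv ρ2 x
      = d x / a * Real.sin (φ x) + g0 x / a * Real.cos (φ x) * deriv φ x := fun x => by
    have h := ((hg0d x).div_const a).mul (hφd x).sin
    rw [show deriv ρ2 x = _ from h.deriv]; ring
  refine ⟨model2 ρ1 ρ2 α1 α2 a, model2_contDiff hρ1s hρ2s hα1s hα2s, ?_, ?_, ?_⟩
  · intro x y
    simp only [model2]
    rw [pρ1 x, pρ2 x, hα1p, hα2p, ← add_assoc, ← add_assoc, Real.cos_add_int_mul_two_pi,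
      Real.sin_add_int_mul_two_pi, Real.cos_add_int_mul_two_pi, Real.sin_add_int_mul_two_pi]
  · intro x y
    simp only [model2]
    have e1 : a * (y + 1) + α1 x = a * y + α1 x + N * (2 * Real.pi) := by rw [ha]; ring
    have e2 : a * (y + 1) + α2 x = a * y + α2 x + N * (2 * Real.pi) := by rw [ha]; ring
    rw [e1, e2, Real.cos_add_nat_mul_two_pi, Real.sin_add_nat_mul_two_pi,
      Real.cos_add_nat_mul_two_pi, Real.sin_add_nat_mul_two_pi]
  · intro p v w
    rw [model2_inner hρ1s hρ2s hα1s hα2s, hα1d, hα2d, hρ1d, hρ2d]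
    have hWx : W p.1 ^ 2 + (deriv φ p.1) ^ 2
        = (a ^ 2 * (E p.1 - M p.1 ^ 2 / G p.1) - d p.1 ^ 2) / G p.1 := by
      rw [hWφ, hqsq]
    obtain ⟨m1', m2', m3'⟩ := metric_algebra a (g0 p.1) (d p.1) (G p.1) (M p.1) (E p.1)
      (deriv φ p.1) (W p.1) (Real.sin (φ p.1)) (Real.cos (φ p.1)) hapos.ne' (hg0sq p.1)
      (hg0pos p.1).ne' (Real.sin_sq_add_cos_sq _) (hsin p.1).ne' (hcos p.1).ne' hWx
    simp only [hρ1, hρ2, hA1, hA2, ht1, ht2, hκ]
    rw [m1', m2', m3']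

end

end Vale.Agent.Lib.P205
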